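import Crest.Agent.R187.Defs

/-!
# Contents of functions, rows of exponent matrices, symmetrisation over the blocks
-/

set_option autoImplicit false

namespace Crest.Agent.R187.Kappa

open MvPolynomial Crest.AlgebraR.FoulkesHowe

/-! ### Contents -/

section Cont

variable {a : ℕ} {σ : Type}

/-- the content of a function: how often each value is taken -/
noncomputable def cont (f : Fin a → σ) : σ →₀ ℕ := ∑ r, Finsupp.single (f r) 1

theorem cont_perm (f : Fin a → σ) (π : Equiv.Perm (Fin a)) : cont (f ∘ π) = cont f :=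
  Equiv.sum_comp π (fun r => Finsupp.single (f r) 1)

theorem cont_apply [DecidableEq σ] (f : Fin a → σ) (x : σ) :
    cont f x = (Finset.univ.filter (fun r => f r = x)).card := by
  simp only [cont, Finsupp.finsetSum_apply, Finsupp.single_apply, Finset.card_filter]

theorem exists_perm_of_cont_eq {f g : Fin a → σ} (h : cont f = cont g) :
    ∃ π : Equiv.Perm (Fin a), g = f ∘ π := by
  classical
  have hc : ∀ c, Fintype.card {r // g r = c} = Fintype.card {r // f r = c} := by
    intro c
    have h1 := cont_apply f c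
    have h2 := cont_apply g c
    rw [h, h2] at h1
    rw [Fintype.card_subtype, Fintype.card_subtype]
    convert h1
  refine ⟨Equiv.ofFiberEquiv (fun c => Fintype.equivOfCardEq (hc c)), ?_⟩
  funext r
  exact (Equiv.ofFiberEquiv_map _ r).symm

theorem degree_cont (f : Fin a → σ) : (cont f).degree = a := by
  simp [cont, map_sum]

theorem mem_support_cont (f : Fin a → σ) (r : Fin a) : f r ∈ (cont f).support := by
  classical
  rw [Finsupp.mem_support_iff, cont_apply]
  exact Finset.card_ne_zero.mpr ⟨r, by simp⟩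

theorem exists_of_mem_support_cont {f : Fin a → σ} {x : σ} (hx : x ∈ (cont f).support) :
    ∃ r, f r = x := by
  classical
  rw [Finsupp.mem_support_iff, cont_apply] at hx
  obtain ⟨r, hr⟩ := Finset.card_ne_zero.mp hx
  exact ⟨r, (Finset.mem_filter.mp hr).2⟩

theorem exists_cont : ∀ (a : ℕ) (m : σ →₀ ℕ), m.degree = a → ∃ f : Fin a → σ, cont f = m
  | 0, m, h => ⟨Fin.elim0, by rw [(Finsupp.degree_eq_zero_iff m).mp h]; simp [cont]⟩
  | a + 1, m, h => by
    classical
    have hm : m ≠ 0 := by rintro rfl; simp at h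
    obtain ⟨x, hx⟩ := Finsupp.support_nonempty_iff.mpr hm
    have hle : Finsupp.single x 1 ≤ m :=
      Finsupp.single_le_iff.mpr (Nat.one_le_iff_ne_zero.mpr (Finsupp.mem_support_iff.mp hx))
    have hsum : Finsupp.single x 1 + (m - Finsupp.single x 1) = m := add_tsub_cancel_of_le hle
    obtain ⟨f, hf⟩ := exists_cont a (m - Finsupp.single x 1) (by
      have := congrArg Finsupp.degree hsum
      rw [map_add, Finsupp.degree_single, h] at this
      omega)
    refine ⟨Fin.cons x f, ?_⟩
    rw [← hsum, ← hf]
    simp [cont, Fin.sum_univ_succ]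

theorem cont_update (f : Fin a → σ) (r : Fin a) (i : σ) :
    cont (Function.update f r i) = cont f - Finsupp.single (f r) 1 + Finsupp.single i 1 := by
  unfold cont
  rw [← Finset.add_sum_erase _ _ (Finset.mem_univ r), ← Finset.add_sum_erase _ _ (Finset.mem_univ r),
    add_tsub_cancel_left, Function.update_self, add_comm]
  congr 1
  refine Finset.sum_congr rfl fun r' hr' => ?_
  rw [Function.update_of_ne (Finset.ne_of_mem_erase hr')]

theorem monomial_cont (f : Fin a → σ) :
    (monomial (cont f) 1 : MvPolynomial σ ℂ) = ∏ r, X (f r) := by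
  unfold cont
  rw [monomial_sum_one]
  rfl

end Cont

/-! ### Derivations -/

theorem deriv_prod {B ι : Type} [CommRing B] [Algebra ℂ B] [DecidableEq ι]
    (D : Derivation ℂ B B) (s : Finset ι) (g : ι → B) :
    D (∏ r ∈ s, g r) = ∑ r ∈ s, (∏ r' ∈ s.erase r, g r') * D (g r) := by
  induction s using Finset.induction_on with
  | empty => simp
  | insert x s hx ih =>
    rw [Finset.prod_insert hx, Finset.sum_insert hx, D.leibniz, ih, Finset.erase_insert hx,
      smul_eq_mul, smul_eq_mul, add_comm, Finset.mul_sum]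
    congr 1
    refine Finset.sum_congr rfl fun r hr => ?_
    have hne : x ≠ r := fun h => hx (h ▸ hr)
    rw [Finset.erase_insert_of_ne hne,
      Finset.prod_insert (fun h => hx (Finset.mem_of_mem_erase h)), mul_assoc]

theorem deriv_prod_update {B Λ : Type} [CommRing B] [Algebra ℂ B] {a : ℕ}
    (D : Derivation ℂ B B) (y : Fin a → Λ → B) (c : Λ → ℂ) (s : Λ → Λ)
    (h : ∀ r α, D (y r α) = c α • y r (s α)) (ρ : Fin a → Λ) :
    D (∏ r, y r (ρ r)) = ∑ r, c (ρ r) • ∏ r', y r' (Function.update ρ r (s (ρ r)) r') := by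
  rw [deriv_prod]
  refine Finset.sum_congr rfl fun r _ => ?_
  rw [h, mul_smul_comm, ← Finset.prod_erase_mul _ _ (Finset.mem_univ r), Function.update_self]
  congr 2
  refine Finset.prod_congr rfl fun r' hr' => ?_
  rw [Function.update_of_ne (Finset.ne_of_mem_erase hr')]

theorem algHom_deriv {σ B : Type} [CommRing B] [Algebra ℂ B] (φ : MvPolynomial σ ℂ →ₐ[ℂ] B)
    (D : Derivation ℂ (MvPolynomial σ ℂ) (MvPolynomial σ ℂ)) (D' : Derivation ℂ B B)
    (h : ∀ v, φ (D (X v)) = D' (φ (X v))) (p : MvPolynomial σ ℂ) : φ (D p) = D' (φ p) := by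
  induction p using MvPolynomial.induction_on with
  | C c => rw [derivation_C, map_zero, ← algebraMap_eq, AlgHom.commutes, D'.map_algebraMap]
  | add p q hp hq => simp only [map_add, hp, hq]
  | mul_X p v hp =>
    simp only [map_mul, Derivation.leibniz, smul_eq_mul, map_add, hp, h]

variable {a n : ℕ}

/-- the derivation under `matE` -/
noncomputable def matD (a n : ℕ) (i j : Fin n) :
    Derivation ℂ (MvPolynomial (Var a n) ℂ) (MvPolynomial (Var a n) ℂ) :=
  mkDerivation ℂ (fun v : Var a n =>
    if v.2 = j then (X (v.1, i) : MvPolynomial (Var a n) ℂ) else 0)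

theorem matE_eq (i j : Fin n) (f : MvPolynomial (Var a n) ℂ) :
    matE a n i j f = matD a n i j f := rfl

theorem matD_X (i j : Fin n) (v : Var a n) :
    matD a n i j (X v) = if v.2 = j then X (v.1, i) else 0 := mkDerivation_X _ _ _

/-- the derivation under `polE` -/
noncomputable def polD (n : ℕ) (i j : Fin n) : Derivation ℂ (Pol Unit n) (Pol Unit n) :=
  mkDerivation ℂ (fun v : Unit × (Fin n →₀ ℕ) =>
    ((v.2 j : ℂ) • X (v.1, v.2 - Finsupp.single j 1 + Finsupp.single i 1) : Pol Unit n))

theorem polE_eq (i j : Fin n) (f : Pol Unit n) : polE Unit n i j f = polD n i j f := rfl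

theorem polD_X (i j : Fin n) (α : Fin n →₀ ℕ) :
    polD n i j (X ((), α)) =
      (α j : ℂ) • X ((), α - Finsupp.single j 1 + Finsupp.single i 1) := mkDerivation_X _ _ _

theorem matD_monomial (i j : Fin n) (e : Var a n →₀ ℕ) :
    matD a n i j (monomial e 1) = ∑ r, (e (r, j) : ℂ) •
      monomial (e - Finsupp.single (r, j) 1 + Finsupp.single (r, i) 1) (1 : ℂ) := by
  unfold matD
  rw [mkDerivation_monomial, one_smul, Finsupp.sum_fintype _ _ (by simp), Fintype.sum_prod_type]
  refine Finset.sum_congr rfl fun r _ => ?_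
  rw [Finset.sum_eq_single j]
  · simp only [if_true, smul_eq_mul, X, monomial_mul, smul_monomial, mul_one]
  · intro k _ hk
    simp [hk]
  · simp

/-! ### Rows -/

/-- a row of an exponent matrix -/
noncomputable def row (e : Var a n →₀ ℕ) (r : Fin a) : Fin n →₀ ℕ :=
  Finsupp.equivFunOnFinite.symm (fun k => e (r, k))

@[simp] theorem row_apply (e : Var a n →₀ ℕ) (r : Fin a) (k : Fin n) : row e r k = e (r, k) := rfl

theorem row_injective {e e' : Var a n →₀ ℕ} (h : row e = row e') : e = e' := by
  ext ⟨r, k⟩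
  rw [← row_apply, ← row_apply, h]

theorem exists_row (ρ : Fin a → Fin n →₀ ℕ) : ∃ e : Var a n →₀ ℕ, row e = ρ :=
  ⟨Finsupp.equivFunOnFinite.symm (fun v => ρ v.1 v.2), by ext r k; rfl⟩

theorem row_shift (e : Var a n →₀ ℕ) (r : Fin a) (i j : Fin n) :
    row (e - Finsupp.single (r, j) 1 + Finsupp.single (r, i) 1) =
      Function.update (row e) r (row e r - Finsupp.single j 1 + Finsupp.single i 1) := by
  ext r' k
  by_cases h : r' = r
  · subst h
    simp [Finsupp.single_apply]
  · simp [Function.update_of_ne h, Ne.symm h]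

theorem weight_blockWeight (e : Var a n →₀ ℕ) (r : Fin a) :
    Finsupp.weight (blockWeight r) e = (row e r).degree := by
  rw [Finsupp.weight_apply, Finsupp.sum_fintype _ _ (by simp), Fintype.sum_prod_type,
    Finsupp.degree_eq_sum, Finset.sum_eq_single r]
  · simp [blockWeight]
  · intro r' _ hr'
    simp [blockWeight, hr']
  · simp

theorem blockPerm_injective (π : Equiv.Perm (Fin a)) :
    Function.Injective (blockPerm (n := n) π) := by
  rintro ⟨r, k⟩ ⟨r', k'⟩ h
  simp only [blockPerm, Prod.mk.injEq, EmbeddingLike.apply_eq_iff_eq] at h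
  exact Prod.ext h.1 h.2

theorem row_mapDomain (e : Var a n →₀ ℕ) (π : Equiv.Perm (Fin a)) :
    row (Finsupp.mapDomain (blockPerm π) e) = row e ∘ π.symm := by
  ext r k
  have : ((r, k) : Var a n) = blockPerm π (π.symm r, k) := by simp [blockPerm]
  rw [row_apply, this, Finsupp.mapDomain_apply (blockPerm_injective π)]
  rfl

theorem mem_blockSym {d : ℕ} {f : MvPolynomial (Var a n) ℂ} :
    f ∈ blockSym a n d ↔ (∀ e ∈ f.support, ∀ r, (row e r).degree = d) ∧
      ∀ π : Equiv.Perm (Fin a), rename (blockPerm π) f = f := by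
  simp only [blockSym, Submodule.mem_inf, Submodule.mem_iInf, mem_weightedHomogeneousSubmodule,
    LinearMap.mem_eqLocus, AlgHom.toLinearMap_apply, LinearMap.id_apply]
  refine and_congr_left fun _ => ⟨fun h e he r => ?_, fun h r e he => ?_⟩
  · rw [← weight_blockWeight]
    exact h r (mem_support_iff.mp he)
  · rw [weight_blockWeight]
    exact h e (mem_support_iff.mpr he) r

/-! ### Symmetrisation -/

/-- the sum over all block permutations -/
noncomputable def symm (a n : ℕ) : MvPolynomial (Var a n) ℂ →ₗ[ℂ] MvPolynomial (Var a n) ℂ :=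
  ∑ π : Equiv.Perm (Fin a), (rename (blockPerm π) : MvPolynomial (Var a n) ℂ →ₐ[ℂ] _).toLinearMap

theorem symm_apply (f : MvPolynomial (Var a n) ℂ) :
    symm a n f = ∑ π : Equiv.Perm (Fin a), rename (blockPerm π) f := by
  simp [symm]

theorem rename_rename_blockPerm (π τ : Equiv.Perm (Fin a)) (f : MvPolynomial (Var a n) ℂ) :
    rename (blockPerm π) (rename (blockPerm τ) f) = rename (blockPerm (π * τ)) f := by
  rw [rename_rename]
  rfl

theorem symm_rename (τ : Equiv.Perm (Fin a)) (f : MvPolynomial (Var a n) ℂ) :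
    symm a n (rename (blockPerm τ) f) = symm a n f := by
  simp only [symm_apply, rename_rename_blockPerm]
  exact Equiv.sum_comp (Equiv.mulRight τ) (fun π => rename (blockPerm π) f)

theorem rename_symm (τ : Equiv.Perm (Fin a)) (f : MvPolynomial (Var a n) ℂ) :
    rename (blockPerm τ) (symm a n f) = symm a n f := by
  simp only [symm_apply, map_sum, rename_rename_blockPerm]
  exact Equiv.sum_comp (Equiv.mulLeft τ) (fun π => rename (blockPerm π) f)

theorem symm_of_mem {d : ℕ} {f : MvPolynomial (Var a n) ℂ} (hf : f ∈ blockSym a n d) :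
    symm a n f = (a.factorial : ℂ) • f := by
  simp only [symm_apply, (mem_blockSym.mp hf).2, Finset.sum_const, Finset.card_univ,
    Fintype.card_perm, Fintype.card_fin, Nat.cast_smul_eq_nsmul]

theorem symm_monomial_mem {d : ℕ} {e : Var a n →₀ ℕ} (he : ∀ r, (row e r).degree = d) :
    symm a n (monomial e 1) ∈ blockSym a n d := by
  simp only [blockSym, Submodule.mem_inf, Submodule.mem_iInf,
    LinearMap.mem_eqLocus, AlgHom.toLinearMap_apply, LinearMap.id_apply]
  refine ⟨fun r => ?_, fun π => rename_symm π _⟩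
  rw [symm_apply]
  refine Submodule.sum_mem _ fun π _ => ?_
  rw [rename_monomial, mem_weightedHomogeneousSubmodule]
  refine isWeightedHomogeneous_monomial _ _ _ ?_
  rw [weight_blockWeight, row_mapDomain]
  exact he _

theorem symm_monomial_of_row {e e' : Var a n →₀ ℕ} {π : Equiv.Perm (Fin a)}
    (h : row e' = row e ∘ π) : symm a n (monomial e' 1) = symm a n (monomial e 1) := by
  have : e' = Finsupp.mapDomain (blockPerm π.symm) e := row_injective (by rw [row_mapDomain, h]; rfl)
  rw [this, ← rename_monomial, symm_rename]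

theorem rename_matD (π : Equiv.Perm (Fin a)) (i j : Fin n) (f : MvPolynomial (Var a n) ℂ) :
    rename (blockPerm π) (matD a n i j f) = matD a n i j (rename (blockPerm π) f) := by
  refine algHom_deriv _ _ _ (fun v => ?_) f
  rw [rename_X, matD_X, matD_X]
  by_cases h : v.2 = j <;> simp [blockPerm, h]

theorem symm_matD (i j : Fin n) (f : MvPolynomial (Var a n) ℂ) :
    symm a n (matD a n i j f) = matD a n i j (symm a n f) := by
  simp only [symm_apply, map_sum, rename_matD]

end Crest.Agent.R187.Kappa
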